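import Mathlib

/-!
# P088, stage 4: touching balls under a change of coordinates
-/

set_option linter.all false

open Set Filter Topology Metric
open scoped ContDiff

noncomputable section

namespace Vale.Agent.P088.R2.H338.U4

variable {F : Type*} [NormedAddCommGroup F] [InnerProductSpace ℝ F] [CompleteSpace F]

/-- Second order Taylor bound. -/
theorem taylor2 {h : F → ℝ} {q : F} (hh : ContDiffAt ℝ 2 h q) :
    ∃ M δ : ℝ, 0 ≤ M ∧ 0 < δ ∧ ∀ y ∈ ball q δ,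
      |h y - h q - fderiv ℝ h q (y - q)| ≤ M * ‖y - q‖ ^ 2 := by
  have h1 : ContDiffAt ℝ 1 (fderiv ℝ h) q := hh.fderiv_right (by norm_cast)
  obtain ⟨K, t, ht, hL⟩ := h1.exists_lipschitzOnWith
  obtain ⟨δ₁, hδ₁, hb₁⟩ := Metric.mem_nhds_iff.1 ht
  have h2 : ∀ᶠ y in 𝓝 q, ContDiffAt ℝ 2 h y := hh.eventually (by simp)
  obtain ⟨δ₂, hδ₂, hb₂⟩ := Metric.eventually_nhds_iff_ball.1 h2
  refine ⟨K, min δ₁ δ₂, K.2, lt_min hδ₁ hδ₂, fun y hy => ?_⟩
  set s : Set F := ball q (min δ₁ δ₂) ∩ closedBall q ‖y - q‖ with hs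
  have hyq : ‖y - q‖ < min δ₁ δ₂ := by rw [← dist_eq_norm]; exact hy
  have hsc : Convex ℝ s := (convex_ball _ _).inter (convex_closedBall _ _)
  have hqs : q ∈ s := ⟨mem_ball_self (lt_min hδ₁ hδ₂), mem_closedBall_self (norm_nonneg _)⟩
  have hys : y ∈ s := ⟨hy, by rw [mem_closedBall, dist_eq_norm]⟩
  have hd : ∀ x ∈ s, HasFDerivWithinAt (fun x => h x - fderiv ℝ h q x)
      (fderiv ℝ h x - fderiv ℝ h q) s x := by
    intro x hx
    have h3 : DifferentiableAt ℝ h x :=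
      (hb₂ x (ball_subset_ball (min_le_right _ _) hx.1)).differentiableAt (by norm_num)
    exact (h3.hasFDerivAt.sub (fderiv ℝ h q).hasFDerivAt).hasFDerivWithinAt
  have hbd : ∀ x ∈ s, ‖fderiv ℝ h x - fderiv ℝ h q‖ ≤ K * ‖y - q‖ := by
    intro x hx
    have h4 := hL.dist_le_mul x (hb₁ (ball_subset_ball (min_le_left _ _) hx.1)) q
      (hb₁ (mem_ball_self hδ₁))
    rw [dist_eq_norm, dist_eq_norm] at h4
    refine h4.trans (mul_le_mul_of_nonneg_left ?_ K.2)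
    have h5 := hx.2
    rwa [mem_closedBall, dist_eq_norm] at h5
  have h6 := hsc.norm_image_sub_le_of_norm_hasFDerivWithin_le hd hbd hqs hys
  rw [Real.norm_eq_abs] at h6
  have h7 : h y - fderiv ℝ h q y - (h q - fderiv ℝ h q q) =
      h y - h q - fderiv ℝ h q (y - q) := by
    rw [map_sub]
    ring
  rw [h7] at h6
  calc _ ≤ K * ‖y - q‖ * ‖y - q‖ := h6
    _ = _ := by ring

/-- The set `{h < 0}` contains a ball touching the point `q`. -/
theorem touch_sub {h : F → ℝ} {q : F} (hh : ContDiffAt ℝ 2 h q) (h0 : h q = 0)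
    (hd : fderiv ℝ h q ≠ 0) {O : Set F} (hO : O ∈ 𝓝 q) :
    ∃ (c : F) (ρ : ℝ), 0 < ρ ∧ dist c q = ρ ∧ ball c ρ ⊆ O ∩ {y | h y < 0} := by
  obtain ⟨M, δ, hM, hδ, hT⟩ := taylor2 hh
  obtain ⟨δ', hδ', hOb⟩ := Metric.mem_nhds_iff.1 hO
  set g : F := (InnerProductSpace.toDual ℝ F).symm (fderiv ℝ h q) with hg
  have hgi : ∀ v, fderiv ℝ h q v = inner ℝ g v := fun v => by
    rw [hg, InnerProductSpace.toDual_symm_apply]
  have hg0 : g ≠ 0 := by
    intro h1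
    apply hd
    ext v
    rw [hgi, h1, inner_zero_left]
    rfl
  have hgn : 0 < ‖g‖ := norm_pos_iff.2 hg0
  obtain ⟨t, ht, ht1, ht2, ht3⟩ : ∃ t : ℝ, 0 < t ∧ 2 * t ≤ δ ∧ 2 * t ≤ δ' ∧
      2 * t * M ≤ ‖g‖ := by
    refine ⟨min (min (δ / 2) (δ' / 2)) (‖g‖ / (2 * (M + 1))), by positivity, ?_, ?_, ?_⟩
    · have := (min_le_left (min (δ / 2) (δ' / 2)) (‖g‖ / (2 * (M + 1)))).trans (min_le_left _ _)
      linarith
    · have := (min_le_left (min (δ / 2) (δ' / 2)) (‖g‖ / (2 * (M + 1)))).trans (min_le_right _ _)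
      linarith
    · have h1 := min_le_right (min (δ / 2) (δ' / 2)) (‖g‖ / (2 * (M + 1)))
      rw [le_div_iff₀ (by positivity)] at h1
      have h2 : 0 < min (min (δ / 2) (δ' / 2)) (‖g‖ / (2 * (M + 1))) := by positivity
      nlinarith
  have hcd : dist (q - (t / ‖g‖) • g) q = t := by
    rw [dist_eq_norm, sub_sub_cancel_left, norm_neg, norm_smul, Real.norm_eq_abs,
      abs_of_pos (by positivity), div_mul_cancel₀ _ hgn.ne']
  refine ⟨q - (t / ‖g‖) • g, t, ht, hcd, fun y hy => ?_⟩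
  rw [mem_ball] at hy
  have hyq : dist y q < 2 * t := by
    calc dist y q ≤ dist y (q - (t / ‖g‖) • g) + dist (q - (t / ‖g‖) • g) q :=
          dist_triangle _ _ _
      _ < t + t := by rw [hcd]; linarith
      _ = 2 * t := by ring
  refine ⟨hOb (by rw [mem_ball]; linarith), ?_⟩
  have h1 := hT y (by rw [mem_ball]; linarith)
  rw [h0, sub_zero, hgi] at h1
  set v := y - q with hv
  have h2 : ‖v + (t / ‖g‖) • g‖ < t := by
    rw [dist_eq_norm] at hy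
    have e1 : y - (q - (t / ‖g‖) • g) = v + (t / ‖g‖) • g := by
      rw [hv]
      abel
    rwa [e1] at hy
  have h3 : ‖v‖ ^ 2 + 2 * ((t / ‖g‖) * inner ℝ g v) < 0 := by
    have e1 : ‖v + (t / ‖g‖) • g‖ ^ 2 < t ^ 2 := pow_lt_pow_left₀ h2 (norm_nonneg _) two_ne_zero
    rw [norm_add_sq_real, inner_smul_right, norm_smul, Real.norm_eq_abs,
      abs_of_pos (by positivity), div_mul_cancel₀ _ hgn.ne', real_inner_comm] at e1
    linarith
  show h y < 0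
  have h4 : h y ≤ inner ℝ g v + M * ‖v‖ ^ 2 := by
    have := (abs_le.1 h1).2
    linarith
  have h5 : 2 * (t / ‖g‖) * inner ℝ g v < -‖v‖ ^ 2 := by linarith
  have h6 : 2 * t * inner ℝ g v < -(‖g‖ * ‖v‖ ^ 2) := by
    have e1 : 2 * (t / ‖g‖) * inner ℝ g v = (2 * t * inner ℝ g v) / ‖g‖ := by ring
    rw [e1, div_lt_iff₀ hgn] at h5
    linarith
  have h7 : 2 * t * h y < 0 := by
    have e1 : 2 * t * h y ≤ 2 * t * inner ℝ g v + (2 * t * M) * ‖v‖ ^ 2 := by nlinarith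
    have e2 : (2 * t * M) * ‖v‖ ^ 2 ≤ ‖g‖ * ‖v‖ ^ 2 :=
      mul_le_mul_of_nonneg_right ht3 (sq_nonneg _)
    linarith
  by_contra hcon
  push Not at hcon
  nlinarith

/-- **Touching balls and diffeomorphisms**: `Y` maps a neighbourhood of `q` to a neighbourhood of
`p = Y q`; a ball touching `p` contains the image of a ball touching `q`. -/
theorem touch_diffeo {Y : F → F} {q c : F} {ρ : ℝ} (hρ : 0 < ρ) (hY : ContDiffAt ℝ 2 Y q)
    (hinj : Function.Surjective (fderiv ℝ Y q)) (hc : dist c (Y q) = ρ) {O : Set F}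
    (hO : O ∈ 𝓝 q) :
    ∃ (c' : F) (ρ' : ℝ), 0 < ρ' ∧ dist c' q = ρ' ∧ ∀ y ∈ ball c' ρ', y ∈ O ∧ Y y ∈ ball c ρ := by
  have hh : ContDiffAt ℝ 2 (fun y => ‖Y y - c‖ ^ 2 - ρ ^ 2) q :=
    ((hY.sub contDiffAt_const).norm_sq ℝ).sub contDiffAt_const
  have hYd : HasFDerivAt Y (fderiv ℝ Y q) q := (hY.differentiableAt (by norm_num)).hasFDerivAt
  have h0 : (fun y => ‖Y y - c‖ ^ 2 - ρ ^ 2) q = 0 := by
    show ‖Y q - c‖ ^ 2 - ρ ^ 2 = 0
    rw [← dist_eq_norm, dist_comm, hc, sub_self]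
  have hder : HasFDerivAt (fun y => ‖Y y - c‖ ^ 2 - ρ ^ 2)
      (2 • (innerSL ℝ (Y q - c)).comp (fderiv ℝ Y q)) q :=
    ((hYd.sub_const c).norm_sq).sub_const _
  have hd : fderiv ℝ (fun y => ‖Y y - c‖ ^ 2 - ρ ^ 2) q ≠ 0 := by
    rw [hder.fderiv]
    intro h1
    obtain ⟨v, hv⟩ := hinj (Y q - c)
    have h2 := DFunLike.congr_fun h1 v
    have h3 : (2 • (innerSL ℝ (Y q - c)).comp (fderiv ℝ Y q)) v = 2 * ‖Y q - c‖ ^ 2 := by
      rw [ContinuousLinearMap.smul_apply, ContinuousLinearMap.comp_apply, hv, innerSL_apply_apply,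
        real_inner_self_eq_norm_sq, nsmul_eq_mul]
      norm_num
    rw [h3] at h2
    have h4 : ‖Y q - c‖ = ρ := by rw [← dist_eq_norm, dist_comm, hc]
    rw [h4] at h2
    have h5 : 2 * ρ ^ 2 = 0 := h2
    have : 0 < ρ ^ 2 := by positivity
    linarith
  obtain ⟨c', ρ', hρ', hc', hs⟩ := touch_sub hh h0 hd hO
  refine ⟨c', ρ', hρ', hc', fun y hy => ⟨(hs hy).1, ?_⟩⟩
  have h1 : ‖Y y - c‖ ^ 2 - ρ ^ 2 < 0 := (hs hy).2
  rw [mem_ball, dist_eq_norm]
  by_contra hcon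
  push Not at hcon
  nlinarith [norm_nonneg (Y y - c)]

end Vale.Agent.P088.R2.H338.U4
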