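import Vale.Agent.P088.R2.H710.S4.LimP
import Vale.Agent.P088.R2.H509.S4.C4
import Vale.Agent.P088.R2.H338.GG

/-!
# P088, stage 4: the difference of the transferred solutions, all ranks, any connection
-/

set_option linter.all false

open Bundle Manifold MeasureTheory Set Filter Topology
open scoped ContDiff

noncomputable section

namespace Vale.Agent.P088.R2.H338.U4

open Vale.Agent.P088 Vale.Agent.P088.EYM Vale.Agent.P088.EYM.O
open Vale.Agent.P088.R2.H509.S3 Vale.Agent.P088.R2.H509.S4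
open Vale.Agent.P088.R2.H710 (InM LimP cu)
open Vale.Agent.P088.R2.H338 (EK ek_re ek_le_fk fk_para fk_hM hM hM_cont hM_nonneg int_mono_hM)

universe u

section forms

variable {n N : ℕ} [NeZero n]

theorem Q_para (L : LD n N) (x : E n) (w v : Fin n → Fib N) :
    APoin_Q L x (fun j => w j - v j) + APoin_Q L x (fun j => w j + v j) =
      2 * APoin_Q L x w + 2 * APoin_Q L x v := by
  unfold APoin_Q
  rw [Finset.mul_sum, Finset.mul_sum, ← Finset.sum_add_distrib, ← Finset.sum_add_distrib]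
  refine Finset.sum_congr rfl fun j _ => ?_
  rw [Finset.mul_sum, Finset.mul_sum, ← Finset.sum_add_distrib, ← Finset.sum_add_distrib]
  refine Finset.sum_congr rfl fun k _ => ?_
  rw [map_sub, map_add, inner_sub_left, inner_sub_right, inner_sub_right, inner_add_left,
    inner_add_right, inner_add_right]
  simp only [Complex.sub_re, Complex.add_re]
  ring

theorem nab_sub {L : LD n N} {D : Set (E n)} (hD : RelOpen D) {a b : E n → Fib N}
    (ha : ContDiffOn ℝ ∞ a D) (hb : ContDiffOn ℝ ∞ b D) {x : E n} (hx : x ∈ D) (j : Fin n) :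
    nab L j (fun y => a y - b y) x = nab L j a x - nab L j b x := by
  unfold nab
  rw [hD.pd_sub ha hb hx j, map_sub]
  abel

/-- Constants for the energy density on a compact set. -/
structure Ell (L : LD n N) (K : Set (E n)) (a C : ℝ) : Prop where
  a0 : 0 < a
  C0 : 0 < C
  pos : ∀ y ∈ K, ∀ w : Fin n → Fib N, 0 ≤ APoin_Q L y w
  lo : ∀ y ∈ K, ∀ c : E n → Fib N,
    a * (‖c y‖ ^ 2 + ∑ j, ‖pd j c y‖ ^ 2) ≤ (ed L c c y).re + C * ‖c y‖ ^ 2
  up : ∀ y ∈ K, ∀ c : E n → Fib N,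
    (ed L c c y).re ≤ C * (‖c y‖ ^ 2 + ∑ j, ‖pd j c y‖ ^ 2)

theorem ell {L : LD n N} {D K : Set (E n)} (hD : RelOpen D) (hL : L.Ok D) (hK : IsCompact K)
    (hKD : K ⊆ D) : ∃ a C, Ell L K a C := by
  obtain ⟨a, C, ha, hC, h⟩ := ell_two hD hL hK hKD
  obtain ⟨a₁, ha₁, hlow⟩ := APoin_Q_low hD hL hK hKD
  have hpos : ∀ y ∈ K, ∀ w : Fin n → Fib N, 0 ≤ APoin_Q L y w := fun y hy w =>
    (mul_nonneg ha₁.le (sq_nonneg _)).trans (hlow y hy w)
  have hnd : ∀ y ∈ K, ∀ c : E n → Fib N, 0 ≤ (nd L c c y).re ∧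
      (nd L c c y).re ≤ C * ‖c y‖ ^ 2 := by
    intro y hy c
    constructor
    · unfold nd
      rw [Complex.re_ofReal_mul]
      refine mul_nonneg (Real.sqrt_nonneg _) ?_
      by_cases h0 : c y = 0
      · rw [h0, inner_zero_left]
        exact le_rfl
      · exact (hL.h_pos y (hKD hy) (c y) h0).le
    · have h1 := (h y hy (fun _ => c y)).2
      have h2 : ∀ j, pd j (fun _ : E n => c y) y = 0 := fun j => pd_const _ _ _
      have h3 : nd L (fun _ => c y) (fun _ => c y) y = nd L c c y := rfl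
      have h4 : 0 ≤ (ed L (fun _ => c y) (fun _ => c y) y).re := by
        rw [APoin_ed_re]
        exact hpos y hy _
      simp only [h2, h3, norm_zero, ne_eq, OfNat.ofNat_ne_zero, not_false_eq_true, zero_pow,
        Finset.sum_const_zero, add_zero] at h1
      linarith
  refine ⟨a, C, ha, hC, hpos, fun y hy c => ?_, fun y hy c => ?_⟩
  · have h1 := (h y hy c).1
    have h2 := (hnd y hy c).2
    linarith
  · have h1 := (h y hy c).2
    have h2 := (hnd y hy c).1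
    linarith

theorem Ell.sub_le {L : LD n N} {D K : Set (E n)} {a C : ℝ} (h : Ell L K a C) (hD : RelOpen D)
    (hKD : K ⊆ D) {c d : E n → Fib N} (hc : ContDiffOn ℝ ∞ c D) (hd : ContDiffOn ℝ ∞ d D) {y : E n}
    (hy : y ∈ K) : (ed L (fun y => c y - d y) (fun y => c y - d y) y).re ≤
      2 * (ed L c c y).re + 2 * (ed L d d y).re := by
  rw [APoin_ed_re, APoin_ed_re, APoin_ed_re]
  have h1 := Q_para L y (fun j => nab L j c y) (fun j => nab L j d y)
  have h2 := h.pos y hy fun j => nab L j c y + nab L j d y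
  have h3 : (fun j => nab L j (fun y => c y - d y) y) = fun j => nab L j c y - nab L j d y :=
    funext fun j => nab_sub hD hc hd (hKD hy) j
  rw [h3]
  linarith

end forms

section pull

variable {n N : ℕ} [NeZero n] {M : Type u} [TopologicalSpace M]
  [ChartedSpace (EuclideanHalfSpace n) M] [IsManifold (𝓡∂ n) ∞ M] [T2Space M] [CompactSpace M]
  [MeasurableSpace M] [BorelSpace M]

/-- The energy form in solution coordinates. -/
theorem ek_pull (P : One n N M) (p : M) {W : LD n N} {D D' : Set (E n)} {X Y : E n → E n}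
    {Sf : E n → EndF N} (hD : RelOpen D) (hD' : RelOpen D') (hDt : D ⊆ tg n p) (hW : W.Ok D')
    (hp : IsPull (P.loc p) W D D' X Y Sf) {u v : M → Fib N} (hu : SmS n u) (hv : SmS n v)
    {S : Set (E n)} (hS : MeasurableSet S) (hSD : S ⊆ D') :
    MeasurableSet ((fun y => (xc n p).symm (Y y)) '' S) ∧
    EK P ((fun y => (xc n p).symm (Y y)) '' S) u v =
      ∫ y in S, ed W (fun y => Ring.inverse (Sf (Y y)) (lu (𝓡∂ n) p u (Y y)))
          (fun y => Ring.inverse (Sf (Y y)) (lu (𝓡∂ n) p v (Y y))) y := by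
  obtain ⟨-, hok, -, hsm⟩ := TM.fLoc n N M
  have hL : (P.loc p).Ok D := cERel_okMono (hok P p) hDt
  have hs := bSymm n N (P.loc p) W D D' X Y Sf hD hD' hp
  have hd := hs.diffeo
  have hder : ∀ y ∈ S, HasFDerivWithinAt Y (fderivWithin ℝ Y (Hs n) y) S y := fun y hy =>
    (hD'.hasD (hSD hy) hd.smX (by simp)).mono (hSD.trans hD'.subset)
  have hinj : InjOn Y S := fun a ha b hb hab => by
    rw [← hd.inv1 a (hSD ha), ← hd.inv1 b (hSD hb), hab]
  have hYm : MeasurableSet (Y '' S) :=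
    hS.image_of_continuousOn_injOn (hd.smX.continuousOn.mono hSD) hinj
  have hYD : Y '' S ⊆ D := by
    rintro _ ⟨y, hy, rfl⟩; exact hd.mapsX (hSD hy)
  obtain ⟨hm, hI⟩ := (TM.fInt n N M P).2.2 p (Y '' S) hYm (hYD.trans hDt)
  have him : (fun y => (xc n p).symm (Y y)) '' S = (xc n p).symm '' (Y '' S) :=
    (image_image _ _ _).symm
  rw [him]
  refine ⟨hm, ?_⟩
  unfold EK
  rw [hI _ (continuous_pairing P.g P.A hu hv).aestronglyMeasurable,
    integral_image_eq_integral_abs_det_fderiv_smul volume hS hder hinj]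
  refine setIntegral_congr_fun hS fun y hy => ?_
  have hyD' := hSD hy
  have hYy : Y y ∈ D := hd.mapsX hyD'
  have k1 := ed_pull hD' hD hW hL hs (((hsm u hu p).mono hDt).of_le (by norm_cast))
    (((hsm v hv p).mono hDt).of_le (by norm_cast)) hyD'
  have k2 := CEnergy_ed P p hu hv (hDt hYy)
  show |(fderivWithin ℝ Y (Hs n) y).det| • ((√((P.loc p).g (Y y)).det : ℂ) *
    pairing P.g P.A u v ((xc n p).symm (Y y))) = _
  rw [k1, k2, energy_det hD' hd.smX hyD', Complex.real_smul]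

theorem ek_mono (P : One n N M) {A B : Set M} (h : A ⊆ B) {u : M → Fib N} (hu : SmS n u) :
    (EK P A u u).re ≤ (EK P B u u).re := by
  haveI := (TM.fInt n N M P).1
  rw [ek_re P A hu, ek_re P B hu]
  exact setIntegral_mono_set (integrable_of_continuous
    (Complex.continuous_re.comp (continuous_pairing P.g P.A hu hu))).integrableOn
    (Eventually.of_forall fun x => cForm_pairing_nonneg P.g P.A u x)
    (HasSubset.Subset.eventuallyLE h)

theorem fk_mono (P : One n N M) {A B : Set M} (h : A ⊆ B) {u : M → Fib N} (hu : SmS n u) :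
    (FK P A u u).re ≤ (FK P B u u).re := by
  rw [fk_hM P A hu]
  exact int_mono_hM P h hu

/-- A form of a function which vanishes off a set. -/
theorem fk_supp (P : One n N M) {A B : Set M} (hB : MeasurableSet B) (h : A ⊆ B) {u : M → Fib N}
    (hu : SmS n u) (h0 : ∀ x ∈ B, x ∉ A → x ∉ tsupport u) :
    (FK P B u u).re = (FK P A u u).re := by
  rw [fk_hM P A hu, fk_hM P B hu]
  refine setIntegral_eq_of_subset_of_forall_sdiff_eq_zero hB h fun x hx => ?_
  have hxt := h0 x hx.1 hx.2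
  unfold hM
  rw [CEnergy_pairing_zero P u hxt, image_eq_zero_of_notMem_tsupport hxt]
  simp

end pull

section main

variable {n N : ℕ} [NeZero n] {M₁ M₂ : Type u}
  [TopologicalSpace M₁] [ChartedSpace (EuclideanHalfSpace n) M₁] [IsManifold (𝓡∂ n) ∞ M₁]
  [T2Space M₁] [CompactSpace M₁] [ConnectedSpace M₁] [MeasurableSpace M₁] [BorelSpace M₁]
  [TopologicalSpace M₂] [ChartedSpace (EuclideanHalfSpace n) M₂] [IsManifold (𝓡∂ n) ∞ M₂]
  [T2Space M₂] [CompactSpace M₂] [ConnectedSpace M₂] [MeasurableSpace M₂] [BorelSpace M₂]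
  {P : One n N M₁} {Q : One n N M₂} {G : TM.Gl M₁ M₂} {V : Set M₂} {F : M₂ → M₁} {x : M₂} {x' : M₁}
  {j0 : Fin N} {s : Fin N → (M₁ → Fib N) × (M₂ → Fib N)}
  {t : Fin n → Fin N → (M₁ → Fib N) × (M₂ → Fib N)} {z : E n} {r : ℝ} {W₁ W₂ : Model n N}
  {D₁ D₂ : Set (E n)} {Y₁ Y₂ : E n → E n}

/-- The bound for the difference of the transferred solutions. -/
theorem wEst (h : LimP P Q G V F x x' j0 s t z r W₁ W₂ D₁ D₂ Y₁ Y₂) (hG : G.Ok n N)
    (hS : TM.SameD P Q G) (hV : IsOpen V) {H : M₂ → EndF N} (hm : TM.WMatch P Q G V F H) {r' : ℝ}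
    (hr' : 0 < r') (hrr : r' < r) {D : Set (E n)} (hD : MeasurableSet D)
    (hDB : D ⊆ Metric.ball z r')
    (hne : ∃ y ∈ Metric.ball z r', (xc n x).symm (Y₂ y) ∈ V) :
    ∃ c : ℝ, 0 ≤ c ∧ ∀ (T : M₂ → Fib N) (u : (M₁ → Fib N) × (M₂ → Fib N)), SmS n T →
      tsupport T ⊆ (fun y => (xc n x).symm (Y₂ y)) '' D → u ∈ TM.PP P Q G →
      ∫ y in Metric.ball z r', (‖cu x' Y₁ (fun j => (s j).1) u.1 y -
          cu x Y₂ (fun j => (s j).2) u.2 y‖ ^ 2 +
        ∑ j, ‖pd j (fun y => cu x' Y₁ (fun j => (s j).1) u.1 y -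
          cu x Y₂ (fun j => (s j).2) u.2 y) y‖ ^ 2) ≤
        c * ((FK Q Vᶜ (T - u.2) (T - u.2)).re +
          ∫ y in D \ {y | y ∈ Metric.ball z r ∧ (xc n x).symm (Y₂ y) ∈ V},
            (‖cu x Y₂ (fun j => (s j).2) T y‖ ^ 2 +
              ∑ j, ‖pd j (cu x Y₂ (fun j => (s j).2) T) y‖ ^ 2)) := by
  obtain ⟨hHB, -⟩ := cClosed_HB (n := n) h.rz
  have hRel : RelOpen (HB z r) := APoin_rel_HB z r
  have hW₁ : W₁.toLD.Ok (HB z r) := h.i₁.mod.ok
  have hW₂ : W₂.toLD.Ok (HB z r) := h.i₂.mod.ok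
  set K : Set (E n) := Metric.closedBall z r' with hKd
  have hK : IsCompact K := isCompact_closedBall _ _
  have hKb : K ⊆ Metric.ball z r := Metric.closedBall_subset_ball hrr
  have hKD : K ⊆ HB z r := by rw [hHB]; exact hKb
  have hUK : Metric.ball z r' ⊆ K := Metric.ball_subset_closedBall
  have hUr : Metric.ball z r' ⊆ Metric.ball z r := hUK.trans hKb
  have hUD : Metric.ball z r' ⊆ HB z r := hUK.trans hKD
  have hHB' : HB z r' = Metric.ball z r' := inter_eq_left.2 fun y hy => (hUD hy).2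
  have hzH : z ∈ Hs n := (hUD (Metric.mem_ball_self hr')).2
  set Gb : Set (E n) := {y | y ∈ Metric.ball z r ∧ (xc n x).symm (Y₂ y) ∈ V} with hGb
  have hth : ContinuousOn (fun y => (xc n x).symm (Y₂ y)) (Metric.ball z r) := by
    rw [← hHB]
    exact (continuousOn_extChartAt_symm (I := 𝓡∂ n) x).comp h.i₂.pull.diffeo.smY.continuousOn
      fun y hy => h.i₂.sub (h.i₂.pull.diffeo.mapsY hy)
  have hGo : IsOpen Gb := hth.isOpen_inter_preimage Metric.isOpen_ball hV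
  have hGr : RelOpen Gb := ⟨Gb, hGo, (inter_eq_left.2 fun y hy => by
    have : y ∈ HB z r := by rw [hHB]; exact hy.1
    exact this.2).symm⟩
  obtain ⟨a₀, ha₀, ha₀V⟩ := hne
  obtain ⟨ρ, hρ, hρs⟩ := Metric.isOpen_iff.1 (Metric.isOpen_ball.inter hGo) a₀
    ⟨ha₀, hUr ha₀, ha₀V⟩
  have ha₀H : a₀ ∈ Hs n := (hUD ha₀).2
  have hHBρ : HB a₀ ρ = Metric.ball a₀ ρ := inter_eq_left.2 fun y hy => (hUD (hρs hy).1).2
  have hsubρ : HB a₀ ρ ⊆ HB z r' := by
    rw [hHBρ, hHB']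
    exact hρs.trans inter_subset_left
  obtain ⟨cq, hcp⟩ := (TM.fPoin n N W₁.toLD z r r' hr' hrr hzH hW₁).2 a₀ ρ hρ hsubρ ha₀H
  set cp : ℝ := cq * volume.real (Metric.ball a₀ ρ) with hcpd
  obtain ⟨e₁, E₁, hell⟩ := ell hRel hW₁ hK hKD
  obtain ⟨k₂, hk₂, hc4⟩ := c4 Q x h.i₂.rel hRel h.i₂.sub hW₂ h.i₂.pull hK hKD
  obtain ⟨k₁, hk₁, hc4'⟩ := c4 P x' h.i₁.rel hRel h.i₁.sub hW₁ h.i₁.pull hK hKD
  have he₁ := hell.a0
  have hE₁ := hell.C0
  refine ⟨e₁⁻¹ * ((1 + E₁ * max cp 0) * (4 * (1 + E₁ * k₂) * (1 + k₂))), by positivity,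
    fun T u hT hTs hu => ?_⟩
  obtain ⟨f₁, f₂, -, hu1, hu2⟩ := id hu
  have hs1 : SmS n u.1 := hu1.smooth
  have hs2 : SmS n u.2 := hu2.smooth
  set c₁ : E n → Fib N := cu x' Y₁ (fun j => (s j).1) u.1 with hc₁
  set c₂ : E n → Fib N := cu x Y₂ (fun j => (s j).2) u.2 with hc₂
  set cT : E n → Fib N := cu x Y₂ (fun j => (s j).2) T with hcT
  have sm1 : ContDiffOn ℝ ∞ c₁ (HB z r) := (hc4' u.1 hs1 ∅ MeasurableSet.empty
    (empty_subset _)).2.1
  have sm2 : ContDiffOn ℝ ∞ c₂ (HB z r) := (hc4 u.2 hs2 ∅ MeasurableSet.empty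
    (empty_subset _)).2.1
  set w : E n → Fib N := fun y => c₁ y - c₂ y with hw
  have smw : ContDiffOn ℝ ∞ w (HB z r) := sm1.sub sm2
  set S : Set (E n) := Metric.ball z r' \ Gb with hSd
  have hSm : MeasurableSet S := measurableSet_ball.diff hGo.measurableSet
  have hSK : S ⊆ K := diff_subset.trans hUK
  have hSD : S ⊆ HB z r := hSK.trans hKD
  have hw0 : ∀ y ∈ Gb, w y = 0 := fun y hy => sub_eq_zero.2 (h.sol u hu y hy.1 hy.2)
  have hwd : ∀ y ∈ Gb, (ed W₁.toLD w w y).re = 0 := by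
    intro y hy
    rw [APoin_ed_re]
    have e1 : (fun j => nab W₁.toLD j w y) = fun _ => 0 := by
      funext j
      unfold nab
      rw [hGr.pd_congr (g := fun _ => (0 : Fib N)) (fun y hy => hw0 y hy) hy j, pd_const, hw0 y hy,
        map_zero, add_zero]
    rw [e1]
    unfold APoin_Q
    simp
  -- integrability
  have ie : ∀ {c : E n → Fib N}, ContDiffOn ℝ ∞ c (HB z r) →
      IntegrableOn (fun y => ed W₁.toLD c c y) K := fun hc =>
    ((APoin_ed_cont hRel hW₁ hc).mono hKD).integrableOn_compact hK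
  have ier : ∀ {c : E n → Fib N}, ContDiffOn ℝ ∞ c (HB z r) →
      IntegrableOn (fun y => (ed W₁.toLD c c y).re) K := fun hc => (ie hc).re
  have in1 : ∀ {c : E n → Fib N}, ContDiffOn ℝ ∞ c (HB z r) →
      IntegrableOn (fun y => ‖c y‖ ^ 2) K := fun hc =>
    ((hc.continuousOn.mono hKD).norm.pow 2).integrableOn_compact hK
  have in2 : ∀ {c : E n → Fib N}, ContDiffOn ℝ ∞ c (HB z r) →
      IntegrableOn (fun y => ‖c y‖ ^ 2 + ∑ j, ‖pd j c y‖ ^ 2) K := by
    intro c hc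
    refine ContinuousOn.integrableOn_compact hK ?_
    refine ((hc.continuousOn.mono hKD).norm.pow 2).add (continuousOn_finsetSum _ fun j _ => ?_)
    exact (((hRel.pd_smooth hc j).continuousOn.mono hKD).norm.pow 2)
  -- the energy of `w`
  set Ew : ℝ := ∫ y in Metric.ball z r', (ed W₁.toLD w w y).re with hEw
  have hEw0 : 0 ≤ Ew := setIntegral_nonneg measurableSet_ball fun y hy => by
    rw [APoin_ed_re]
    exact hell.pos y (hUK hy) _
  have hP : ∫ y in Metric.ball z r', ‖w y‖ ^ 2 ≤ max cp 0 * Ew := by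
    have e1 := hcp w smw
    rw [hHB', hHBρ] at e1
    have e3 : (En W₁.toLD (Metric.ball z r') w w).re = Ew :=
      (integral_re ((ie smw).mono_set hUK)).symm
    have e2 : ∫ y in Metric.ball a₀ ρ, (‖w y‖ ^ 2 + Ew) =
        volume.real (Metric.ball a₀ ρ) * Ew := by
      have e4 : ∫ y in Metric.ball a₀ ρ, (‖w y‖ ^ 2 + Ew) = ∫ y in Metric.ball a₀ ρ, Ew := by
        refine setIntegral_congr_fun measurableSet_ball fun y hy => ?_
        show ‖w y‖ ^ 2 + Ew = Ew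
        rw [hw0 y (hρs hy).2]
        simp
      rw [e4, setIntegral_const, smul_eq_mul]
    rw [e3, e2, ← mul_assoc] at e1
    exact e1.trans (mul_le_mul_of_nonneg_right (le_max_left _ _) hEw0)
  have hL : ∫ y in Metric.ball z r', (‖w y‖ ^ 2 + ∑ j, ‖pd j w y‖ ^ 2) ≤
      e₁⁻¹ * ((1 + E₁ * max cp 0) * Ew) := by
    have e1 : e₁ * ∫ y in Metric.ball z r', (‖w y‖ ^ 2 + ∑ j, ‖pd j w y‖ ^ 2) ≤
        Ew + E₁ * ∫ y in Metric.ball z r', ‖w y‖ ^ 2 := by
      rw [← integral_const_mul, ← integral_const_mul, hEw,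
        ← integral_add ((ier smw).mono_set hUK) (((in1 smw).mono_set hUK).const_mul _)]
      exact setIntegral_mono_on (((in2 smw).mono_set hUK).const_mul _)
        (((ier smw).mono_set hUK).add (((in1 smw).mono_set hUK).const_mul _)) measurableSet_ball
        fun y hy => hell.lo y (hUK hy) w
    rw [inv_mul_eq_div, le_div_iff₀ he₁, mul_comm]
    nlinarith [mul_le_mul_of_nonneg_left hP hE₁.le]
  -- off the matched part
  have hEs : Ew = ∫ y in S, (ed W₁.toLD w w y).re := by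
    refine setIntegral_eq_of_subset_of_forall_sdiff_eq_zero measurableSet_ball diff_subset
      fun y hy => ?_
    by_contra hne
    exact hy.2 ⟨hy.1, fun hyG => hne (hwd y hyG)⟩
  have hE2 : Ew ≤ 2 * (∫ y in S, (ed W₁.toLD c₁ c₁ y).re) +
      2 * ∫ y in S, (ed W₁.toLD c₂ c₂ y).re := by
    rw [hEs, ← integral_const_mul, ← integral_const_mul,
      ← integral_add (((ier sm1).mono_set hSK).const_mul _) (((ier sm2).mono_set hSK).const_mul _)]
    exact setIntegral_mono_on ((ier smw).mono_set hSK)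
      ((((ier sm1).mono_set hSK).const_mul _).add (((ier sm2).mono_set hSK).const_mul _)) hSm
      fun y hy => hell.sub_le hRel hKD sm1 sm2 (hSK hy)
  set B : ℝ := (FK Q Vᶜ u.2 u.2).re with hB
  -- the first solution
  have hA1 : ∫ y in S, (ed W₁.toLD c₁ c₁ y).re ≤ B := by
    obtain ⟨-, e1⟩ := ek_pull P x' h.i₁.rel hRel h.i₁.sub hW₁ h.i₁.pull hs1 hs1 hSm hSD
    have e2 : ∫ y in S, (ed W₁.toLD c₁ c₁ y).re =
        (EK P ((fun y => (xc n x').symm (Y₁ y)) '' S) u.1 u.1).re := by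
      rw [e1]
      exact integral_re ((ie sm1).mono_set hSK)
    have e3 : (fun y => (xc n x').symm (Y₁ y)) '' S ⊆ (F '' V)ᶜ := by
      rintro _ ⟨y, hy, rfl⟩ ⟨m, hmV, hme⟩
      have hyr : y ∈ Metric.ball z r := hKb (hSK hy)
      have e4 := h.off y hyr m hmV hme
      exact hy.2 ⟨hyr, by rw [e4]; exact hmV⟩
    rw [e2]
    refine (ek_mono P e3 hs1).trans ?_
    rw [ek_two hG hS hV hm hu hu]
    exact ek_le_fk Q Vᶜ hs2
  -- the second solution
  have hA2 : ∫ y in S, (ed W₁.toLD c₂ c₂ y).re ≤ E₁ * (k₂ * B) := by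
    have e1 : ∫ y in S, (ed W₁.toLD c₂ c₂ y).re ≤
        E₁ * ∫ y in S, (‖c₂ y‖ ^ 2 + ∑ j, ‖pd j c₂ y‖ ^ 2) := by
      rw [← integral_const_mul]
      exact setIntegral_mono_on ((ier sm2).mono_set hSK) (((in2 sm2).mono_set hSK).const_mul _)
        hSm fun y hy => hell.up y (hSK hy) c₂
    have e2 := (hc4 u.2 hs2 S hSm hSK).2.2.1
    have e3 : (fun y => (xc n x).symm (Y₂ y)) '' S ⊆ Vᶜ := by
      rintro _ ⟨y, hy, rfl⟩ hyV
      exact hy.2 ⟨hKb (hSK hy), hyV⟩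
    exact e1.trans (mul_le_mul_of_nonneg_left
      (e2.trans (mul_le_mul_of_nonneg_left (fk_mono Q e3 hs2) hk₂.le)) hE₁.le)
  -- the transplanted function
  set J : ℝ := ∫ y in D \ Gb, (‖cT y‖ ^ 2 + ∑ j, ‖pd j cT y‖ ^ 2) with hJ
  have hJ0 : 0 ≤ J := integral_nonneg fun y =>
    add_nonneg (sq_nonneg _) (Finset.sum_nonneg fun j _ => sq_nonneg _)
  have hDK : D \ Gb ⊆ K := diff_subset.trans (hDB.trans hUK)
  have hT1 : (FK Q Vᶜ T T).re ≤ k₂ * J := by
    have e3 : (fun y => (xc n x).symm (Y₂ y)) '' (D \ Gb) ⊆ Vᶜ := by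
      rintro _ ⟨y, hy, rfl⟩ hyV
      exact hy.2 ⟨hUr (hDB hy.1), hyV⟩
    rw [fk_supp Q hV.measurableSet.compl e3 hT fun m hmV hmn hmt => ?_]
    · exact (hc4 T hT (D \ Gb) (hD.diff hGo.measurableSet) hDK).2.2.2
    · obtain ⟨y, hy, rfl⟩ := hTs hmt
      exact hmn ⟨y, ⟨hy, fun hyG => hmV hyG.2⟩, rfl⟩
  set I : ℝ := (FK Q Vᶜ (T - u.2) (T - u.2)).re with hI
  have hTu : SmS n (T - u.2) := hT.sub hs2
  have hI0 : 0 ≤ I := fk_nonneg Q _ hTu
  have hB1 : B ≤ 2 * (k₂ * J) + 2 * I := by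
    have e1 := fk_para Q Vᶜ hT hTu
    rw [sub_sub_cancel] at e1
    linarith
  have hB0 : 0 ≤ B := fk_nonneg Q _ hs2
  have hE3 : Ew ≤ 4 * (1 + E₁ * k₂) * (1 + k₂) * (I + J) := by
    have e1 : Ew ≤ 2 * (1 + E₁ * k₂) * B := by nlinarith
    have e2 : B ≤ 2 * ((1 + k₂) * (I + J)) := by nlinarith [mul_nonneg hk₂.le hI0]
    have e3 : 0 ≤ 2 * (1 + E₁ * k₂) := by positivity
    calc Ew ≤ 2 * (1 + E₁ * k₂) * B := e1
      _ ≤ 2 * (1 + E₁ * k₂) * (2 * ((1 + k₂) * (I + J))) := mul_le_mul_of_nonneg_left e2 e3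
      _ = _ := by ring
  have e5 : 0 ≤ 1 + E₁ * max cp 0 := by positivity
  calc _ ≤ e₁⁻¹ * ((1 + E₁ * max cp 0) * Ew) := hL
    _ ≤ e₁⁻¹ * ((1 + E₁ * max cp 0) * (4 * (1 + E₁ * k₂) * (1 + k₂) * (I + J))) :=
      mul_le_mul_of_nonneg_left (mul_le_mul_of_nonneg_left hE3 e5) (inv_nonneg.2 he₁.le)
    _ = _ := by ring

end main

end Vale.Agent.P088.R2.H338.U4
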