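import Vale.Agent.P088.R2.H338.U.WP
import Vale.Agent.P088.R2.H710.S4.Hd

/-!
# P088, stage 4: the `w` bound in the form of `Hd`
-/

set_option linter.all false

open Bundle Manifold MeasureTheory Set Filter Topology
open scoped ContDiff

noncomputable section

namespace Vale.Agent.P088.R2.H338.U4

open Vale.Agent.P088 Vale.Agent.P088.EYM Vale.Agent.P088.EYM.O
open Vale.Agent.P088.R2.H710 (InM LimP cu hN mp Th)

universe u

variable {n N : ℕ} [NeZero n] {M₁ M₂ : Type u}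
  [TopologicalSpace M₁] [ChartedSpace (EuclideanHalfSpace n) M₁] [IsManifold (𝓡∂ n) ∞ M₁]
  [T2Space M₁] [CompactSpace M₁] [ConnectedSpace M₁] [MeasurableSpace M₁] [BorelSpace M₁]
  [TopologicalSpace M₂] [ChartedSpace (EuclideanHalfSpace n) M₂] [IsManifold (𝓡∂ n) ∞ M₂]
  [T2Space M₂] [CompactSpace M₂] [ConnectedSpace M₂] [MeasurableSpace M₂] [BorelSpace M₂]
  {P : One n N M₁} {Q : One n N M₂} {G : TM.Gl M₁ M₂} {V : Set M₂} {F : M₂ → M₁} {x : M₂} {x' : M₁}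
  {j0 : Fin N} {s : Fin N → (M₁ → Fib N) × (M₂ → Fib N)}
  {t : Fin n → Fin N → (M₁ → Fib N) × (M₂ → Fib N)} {z : E n} {r : ℝ} {W₁ W₂ : Model n N}
  {D₁ D₂ : Set (E n)} {Y₁ Y₂ : E n → E n}

theorem limP_wEst (hG : G.Ok n N) (hS : TM.SameD P Q G) (hV : IsOpen V) {H : M₂ → EndF N}
    (hm : TM.WMatch P Q G V F H) (h : LimP P Q G V F x x' j0 s t z r W₁ W₂ D₁ D₂ Y₁ Y₂) {r' : ℝ}
    (hr' : 0 < r') (hrr : r' < r) {D : Set (E n)} (hD : MeasurableSet D)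
    (hDB : D ⊆ Metric.ball z r') :
    ∃ c : ℝ, 0 ≤ c ∧ ∀ (f : E n → Fib N) (T : M₂ → Fib N) (u : (M₁ → Fib N) × (M₂ → Fib N)),
      tsupport f ⊆ D → SmS n T →
      (∀ y ∈ Metric.ball z r, cu x Y₂ (fun j => (s j).2) T y = f y) →
      tsupport T ⊆ Th x Y₂ '' tsupport f → u ∈ TM.PP P Q G →
      (∫ y in Metric.ball z r', hN (fun y => cu x' Y₁ (fun j => (s j).1) u.1 y -
        cu x Y₂ (fun j => (s j).2) u.2 y) y) ≤
        c * ((FK Q Vᶜ (T - u.2) (T - u.2)).re + ∫ y in D \ mp V x Y₂ z r, hN f y) := by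
  have hne : ∃ y ∈ Metric.ball z r', (xc n x).symm (Y₂ y) ∈ V := by
    obtain ⟨y, hy1, hy2⟩ := mem_closure_iff_nhds.1 (h.mp_closure h.cl) _
      (Metric.ball_mem_nhds z hr')
    exact ⟨y, hy1, hy2.2⟩
  obtain ⟨c, hc, hb⟩ := wEst h hG hS hV hm hr' hrr hD hDB hne
  refine ⟨c, hc, fun f T u hfD hT hTe hTs hu => ?_⟩
  have h1 := hb T u hT (hTs.trans (image_mono hfD)) hu
  have h2 : ∫ y in D \ mp V x Y₂ z r, hN f y =
      ∫ y in D \ {y | y ∈ Metric.ball z r ∧ (xc n x).symm (Y₂ y) ∈ V},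
        (‖cu x Y₂ (fun j => (s j).2) T y‖ ^ 2 +
          ∑ j, ‖pd j (cu x Y₂ (fun j => (s j).2) T) y‖ ^ 2) := by
    refine setIntegral_congr_fun (hD.diff (h.mp_open hV).measurableSet) fun y hy => ?_
    have hyb : y ∈ Metric.ball z r := Metric.ball_subset_ball hrr.le (hDB hy.1)
    have hyH : y ∈ HB z r := by rw [h.hb.1]; exact hyb
    have hRel : RelOpen (HB z r) := APoin_rel_HB z r
    unfold hN
    rw [hTe y hyb]
    congr 1
    refine Finset.sum_congr rfl fun j _ => ?_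
    rw [hRel.pd_congr (g := f) (fun y hy => hTe y (by rw [← h.hb.1]; exact hy)) hyH j]
  rw [h2]
  exact h1

end Vale.Agent.P088.R2.H338.U4
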